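import Vale.Agent.P154.GDP.Data

/-!
# Kernel checks of the pointwise inequalities, Poisson certificate (part 1)
-/

namespace Vale.Agent.P154.GDP

open Vale.Agent.P154.GD (chkI)

set_option maxRecDepth 100000

theorem ok_ve0 : okE ve0 = true := by decide +kernel

theorem ok_ve1 : okE ve1 = true := by decide +kernel

theorem ok_ve2 : okE ve2 = true := by decide +kernel

theorem ok_ve3 : okE ve3 = true := by decide +kernel

theorem ok_ve4 : okE ve4 = true := by decide +kernel

theorem ok_ve5 : okE ve5 = true := by decide +kernel

theorem ok_ve6 : okE ve6 = true := by decide +kernel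

theorem ok_ve7 : okE ve7 = true := by decide +kernel

end Vale.Agent.P154.GDP
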