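import Vale.Agent.P154.GDP.Data

/-!
# Kernel checks of the pointwise inequalities, Poisson certificate (part 2)
-/

namespace Vale.Agent.P154.GDP

open Vale.Agent.P154.GD (chkI)

set_option maxRecDepth 100000

theorem ok_ve8 : okE ve8 = true := by decide +kernel

theorem ok_ve9 : okE ve9 = true := by decide +kernel

theorem ok_ve10 : okE ve10 = true := by decide +kernel

theorem ok_ve11 : okE ve11 = true := by decide +kernel

theorem ok_ve12 : okE ve12 = true := by decide +kernel

theorem ok_ve13 : okE ve13 = true := by decide +kernel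

theorem ok_ve14 : okE ve14 = true := by decide +kernel

theorem ok_ve15 : okE ve15 = true := by decide +kernel

theorem ok_ve16 : okE ve16 = true := by decide +kernel

theorem ok_ve17 : okE ve17 = true := by decide +kernel

theorem ok_ve18 : okE ve18 = true := by decide +kernel

theorem ok_ve19 : okE ve19 = true := by decide +kernel

theorem ok_ve20 : okE ve20 = true := by decide +kernel

theorem ok_ve21 : okE ve21 = true := by decide +kernel

theorem ok_ve22 : okE ve22 = true := by decide +kernel

theorem okR1 : tR1.chk (chkI ⟨0, 0, 0, 0, 0, 0⟩ bR1) (11, 11, 6) (19, 17, 17) (1, 1, 1) = true := by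
  decide +kernel

theorem okR2 : tR2.chk (chkI ⟨0, 0, 0, 0, 0, 0⟩ bR2) (11, 11, 6) (19, 17, 17) (1, 1, 1) = true := by
  decide +kernel

theorem okR3 : tR3.chk (chkI ⟨0, 0, 0, 0, 0, 0⟩ bR3) (11, 11, 6) (19, 17, 17) (1, 1, 1) = true := by
  decide +kernel

theorem okR4 : tR4.chk (chkI ⟨0, 0, 0, 0, 0, 0⟩ bR4) (11, 11, 6) (19, 17, 17) (1, 1, 1) = true := by
  decide +kernel

theorem okR5 : tR5.chk (chkI nR5 bR5) (11, 11, 6) (19, 17, 17) (1, 1, 1) = true := by decide +kernel

theorem okR5' : uR5.chk (chkII nR5 (-48600000) (0, 0, 0)) (1, 0, 0) (1, 1, 0) (1, 1, 1) = true := by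
  decide +kernel

theorem okR6 : tR6.chk (chkI nR6 bR6) (11, 11, 6) (19, 17, 17) (1, 1, 1) = true := by decide +kernel

end Vale.Agent.P154.GDP
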