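import Vale.Agent.P154.GD.Point

/-!
# The second form for the Poisson certificate
-/

namespace Vale.Agent.P154.GDP

open Vale.Agent.P154 Vale.Agent.P154.GD

/-- check of the second form on a cone -/
def chkII (n : Cf) (a : ℤ) (l : ℤ × ℤ × ℤ) (A B C : V3) : Bool :=
  kc 2 1 37 (FII PE.C n a l (PE.C 25 * (PE.C 1 + PE.X 2)) (PE.C 12 * PE.X 2)
    (lf A.1 B.1 C.1) (lf A.2.1 B.2.1 C.2.1) (lf A.2.2 B.2.2 C.2.2))

theorem chkII_sound (n : Cf) (a : ℤ) (l : ℤ × ℤ × ℤ) (A B C : V3)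
    (h : chkII n a l A B C = true) :
    Cone (fun x y z => ∀ ζ : ℝ, 0 ≤ ζ → 0 ≤ FII kR n a l (25 * (1 + ζ)) (12 * ζ) x y z) A B C := by
  intro p q r hp hq hr ζ hζ
  have h1 := PE.den_nonneg_of_kcheck
    (fun i => if i = 0 then p / r else if i = 1 then q / r else ζ) 2 1 _ 37
    (by intro i _; split_ifs <;> positivity) _ h
  rw [den_FII] at h1
  simp only [den_lf, PE.den_mul, PE.den_add, PE.den_C, PE.den_X] at h1
  have e : ∀ s t u : ℕ, p * (s : ℝ) + q * t + r * u = r * (s * (p / r) + t * (q / r) + u) := by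
    intro s t u; field_simp
  simp only [e]
  rw [FII_smul]
  exact mul_nonneg (by positivity) (by simpa using h1)

end Vale.Agent.P154.GDP
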