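import Vale.Agent.P154.GD.Tree
import Vale.Agent.P154.GDP.Ck3

/-!
# Descent for the Poisson certificate
-/

namespace Vale.Agent.P154.GDP

open Finset Vale.Agent.P154 Vale.Agent.P154.Up
open Vale.Agent.P154.GD hiding chkII chkII_sound chordPE chord_ok chord FI_nonneg FII_nonneg lamZ okE bR1 bR2 bR3 bR4 bR5 bR6 tR1 tR2 tR3 tR4 tR5 uR5 tR6 nR5 nR6 okR1 okR2 okR3 okR4 okR5 okR5' okR6 Cov cover link_of chan_nonneg' mass_chan exp_main exp_ratio exp_M lam_facts Hv_node Hm_mem Hv_mem gvec_mem descent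

section exp

variable {κ : ℝ} {X : Type} [Fintype X] {u : X → Fin 3 → ℝ}

theorem link_of (hκ : 0 < κ) (hκ' : κ < 12 / 25) (hu : ∀ x i, 0 < u x i) (x : X) :
    Link κ (rt6 (u x) 0) (rt6 (u x) 1) (rt6 (u x) 2) (rt6 (chan (-κ) u x) 0)
      (rt6 (chan (-κ) u x) 1) (rt6 (chan (-κ) u x) 2) := by
  have hm : mass (u x) = (u x 0 + u x 1 + u x 2) / 3 := by
    unfold mass
    rw [Fin.sum_univ_three]
    norm_num
  have hw : ∀ i, 0 < chan (-κ) u x i := by
    intro i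
    rw [chan_eq, hm]
    have h0 := hu x 0
    have h1 := hu x 1
    have h2 := hu x 2
    have : u x i ≤ u x 0 + u x 1 + u x 2 := by fin_cases i <;> simp <;> linarith
    nlinarith
  have hS := sS_rt6 (fun i => (hu x i).le)
  have key : ∀ i, rt6 (chan (-κ) u x) i ^ 6 =
      (1 + κ) / 3 * sS (rt6 (u x) 0) (rt6 (u x) 1) (rt6 (u x) 2) - κ * rt6 (u x) i ^ 6 := by
    intro i
    rw [rt6_pow (hw i).le, rt6_pow (hu x i).le, hS, chan_eq]
    ring
  exact
    { x0p := rt6_pos (hu x 0)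
      x1p := rt6_pos (hu x 1)
      x2p := rt6_pos (hu x 2)
      y0p := rt6_pos (hw 0)
      y1p := rt6_pos (hw 1)
      y2p := rt6_pos (hw 2)
      e0 := key 0
      e1 := key 1
      e2 := key 2 }

theorem chan_nonneg' (hκ : 0 < κ) (hκ' : κ < 12 / 25) (hu : ∀ x i, 0 < u x i) (x : X) (i : Fin 3) :
    0 ≤ chan (-κ) u x i := by
  have h := link_of hκ hκ' hu x
  by_contra hc
  push Not at hc
  have hm : mass (u x) = (u x 0 + u x 1 + u x 2) / 3 := by
    unfold mass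
    rw [Fin.sum_univ_three]
    norm_num
  rw [chan_eq, hm] at hc
  have h0 := hu x 0
  have h1 := hu x 1
  have h2 := hu x 2
  have : u x i ≤ u x 0 + u x 1 + u x 2 := by fin_cases i <;> simp <;> linarith
  nlinarith

theorem mass_chan (x : X) : mass (chan (-κ) u x) = mass (u x) := by
  unfold mass
  simp_rw [chan_eq]
  unfold mass
  rw [Fin.sum_univ_three, Fin.sum_univ_three]
  push_cast
  ring

/-- the main inequality for an experiment -/
theorem exp_main (hκ : 0 < κ) (hκ' : κ < 12 / 25) (hu : ∀ x i, 0 < u x i)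
    (hs : ∀ i, ∑ x, u x i = 1) {n : Cf} {b l : ℤ × ℤ × ℤ} {a : ℤ} {t1 t2 : Tri}
    (h1 : t1.chk (chkI n b) (11, 11, 6) (19, 17, 17) (1, 1, 1) = true)
    (h2 : t2.chk (chkII n a l) (1, 0, 0) (1, 1, 0) (1, 1, 1) = true) :
    b.1 * (1 - HH (al 0) (chan (-κ) u)) + b.2.1 * (1 - HH (al 1) (chan (-κ) u)) +
      b.2.2 * (1 - HH (al 2) (chan (-κ) u)) ≤
    κ ^ 2 * (l.1 * (1 - HH (al 0) u) + l.2.1 * (1 - HH (al 1) u) + l.2.2 * (1 - HH (al 2) u) -
      a / 2) := by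
  have hm := sum_mass_eq_one (q := 3) (by norm_num) hs
  have key : ∀ x, b.1 * (mass (u x) - hh (al 0) (chan (-κ) u x)) +
      b.2.1 * (mass (u x) - hh (al 1) (chan (-κ) u x)) +
      b.2.2 * (mass (u x) - hh (al 2) (chan (-κ) u x)) ≤
      κ ^ 2 * (l.1 * (mass (u x) - hh (al 0) (u x)) + l.2.1 * (mass (u x) - hh (al 1) (u x)) +
        l.2.2 * (mass (u x) - hh (al 2) (u x)) - a / 2 * mass (u x)) := by
    intro x
    have h := linkMain (link_of hκ hκ' hu x) hκ hκ' h1 h2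
    rw [gB_rt6 b (chan_nonneg' hκ hκ' hu x), gB_rt6 l (fun i => (hu x i).le),
      sS_rt6 (fun i => (hu x i).le), mass_chan] at h
    linarith
  have := Finset.sum_le_sum fun x (_ : x ∈ (univ : Finset X)) => key x
  simp only [Finset.sum_add_distrib, ← Finset.mul_sum, Finset.sum_sub_distrib] at this
  rw [hm] at this
  simp only [mul_one] at this
  exact this

/-- inequalities between message functionals -/
theorem exp_ratio (hκ : 0 < κ) (hκ' : κ < 12 / 25) (hu : ∀ x i, 0 < u x i)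
    (hs : ∀ i, ∑ x, u x i = 1) {b : ℤ × ℤ × ℤ} {t : Tri}
    (h1 : t.chk (chkI ⟨0, 0, 0, 0, 0, 0⟩ b) (11, 11, 6) (19, 17, 17) (1, 1, 1) = true) :
    b.1 * (1 - HH (al 0) (chan (-κ) u)) + b.2.1 * (1 - HH (al 1) (chan (-κ) u)) +
      b.2.2 * (1 - HH (al 2) (chan (-κ) u)) ≤ 0 := by
  have hm := sum_mass_eq_one (q := 3) (by norm_num) hs
  have key : ∀ x, b.1 * (mass (u x) - hh (al 0) (chan (-κ) u x)) +
      b.2.1 * (mass (u x) - hh (al 1) (chan (-κ) u x)) +
      b.2.2 * (mass (u x) - hh (al 2) (chan (-κ) u x)) ≤ 0 := by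
    intro x
    have h := linkRatio (link_of hκ hκ' hu x) hκ hκ' h1
    rw [gB_rt6 b (chan_nonneg' hκ hκ' hu x), mass_chan] at h
    linarith
  have := Finset.sum_le_sum fun x (_ : x ∈ (univ : Finset X)) => key x
  simp only [Finset.sum_add_distrib, ← Finset.mul_sum, Finset.sum_sub_distrib] at this
  rw [hm, Finset.sum_const_zero] at this
  exact this

/-- the second moment is controlled by the message functional -/
theorem exp_M (hκ : 0 < κ) (hκ' : κ < 12 / 25) (hu : ∀ x i, 0 < u x i)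
    (hs : ∀ i, ∑ x, u x i = 1) :
    100 * κ ^ 2 * Mfun u ≤ 115 * (1 - HH (al 2) (chan (-κ) u)) := by
  have hm := sum_mass_eq_one (q := 3) (by norm_num) hs
  rw [Mfun_eq_Gfun (by norm_num)]
  unfold HH
  rw [← hm, ← Finset.sum_sub_distrib, Finset.mul_sum, Finset.mul_sum]
  refine Finset.sum_le_sum fun x _ => ?_
  have hl := link_of hκ hκ' hu x
  have h := linkFI hl hκ hκ' okR6
  unfold FI at h
  rw [hl.sS, hl.sR, gB_rt6 bR6 (chan_nonneg' hκ hκ' hu x), mass_chan] at h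
  have hR : sR kR (rt6 (u x) 0) (rt6 (u x) 1) (rt6 (u x) 2) =
      3 * (u x 0 ^ 2 + u x 1 ^ 2 + u x 2 ^ 2) - (3 * mass (u x)) ^ 2 := by
    unfold sR
    rw [sS_rt6 (fun i => (hu x i).le), rt6_pow (hu x 0).le, rt6_pow (hu x 1).le,
      rt6_pow (hu x 2).le]
    simp only [kR]
    push_cast
    ring
  rw [hR, sS_rt6 (fun i => (hu x i).le)] at h
  have hmp : 0 < mass (u x) := mass_pos' (by norm_num) (hu x)
  have hG : Gfun (u x) * (6 * (3 * mass (u x))) =
      3 * (u x 0 ^ 2 + u x 1 ^ 2 + u x 2 ^ 2) - (3 * mass (u x)) ^ 2 := by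
    have hS : 3 * mass (u x) = u x 0 + u x 1 + u x 2 := by
      unfold mass
      rw [Fin.sum_univ_three]
      push_cast
      ring
    have hSp : 0 < u x 0 + u x 1 + u x 2 := by rw [← hS]; linarith
    rw [hS]
    unfold Gfun
    simp only [Fin.sum_univ_three]
    push_cast
    field_simp
    ring
  rw [← hG] at h
  set S := 3 * mass (u x) with hSdef
  have hSp : 0 < S := by rw [hSdef]; linarith
  have hb : bR6 = (0, 0, -115) := rfl
  have hn : nR6 = ⟨-100, 0, 0, 0, 0, 0⟩ := rfl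
  rw [hb, hn] at h
  unfold pI at h
  simp only [kR] at h
  push_cast at h
  have e : 0 ≤ (6 * S ^ 5) * (115 * (mass (u x) - hh (al 2) (chan (-κ) u x)) -
      100 * κ ^ 2 * Gfun (u x)) := by
    refine le_of_le_of_eq h ?_
    ring
  have := nonneg_of_mul_nonneg_right e (by positivity)
  linarith

end exp

variable {κ : ℝ}

theorem lam_facts (hκ : 0 < κ) (hκ' : κ < 12 / 25) :
    -1 / ((3 : ℕ) - 1 : ℝ) < -κ ∧ -κ < 1 := by
  constructor
  · push_cast
    rw [div_lt_iff₀ (by norm_num)]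
    linarith
  · linarith

theorem Hv_node (hκ : 0 < κ) (hκ' : κ < 12 / 25) (i : Fin 3) {n : ℕ} (k : ℕ)
    (ch : Fin k → GTree n) : Hv κ i (GTree.node k ch) = ∏ v, Hm κ i (ch v) := by
  obtain ⟨h1, h2⟩ := lam_facts hκ hκ'
  exact (HH_pi (al i) k (fun v => Obs 3 (ch v)) (fun v => chan (-κ) (lik 3 (-κ) (ch v)))
      (fun v => (weak_lik h1 h2 (ch v)).chan_good (by norm_num) h1 h2)).2

theorem Hm_mem (hκ : 0 < κ) (hκ' : κ < 12 / 25) (i : Fin 3) {n : ℕ} (T : GTree n) :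
    0 ≤ Hm κ i T ∧ Hm κ i T ≤ 1 := by
  obtain ⟨h1, h2⟩ := lam_facts hκ hκ'
  have g := (weak_lik h1 h2 T).chan_good (by norm_num) h1 h2
  exact ⟨HH_nonneg _ fun x i => (g.pos x i).le, HH_le_one i (fun x i => (g.pos x i).le) g.sum⟩

theorem Hv_mem (hκ : 0 < κ) (hκ' : κ < 12 / 25) (i : Fin 3) {n : ℕ} (T : GTree n) :
    0 ≤ Hv κ i T ∧ Hv κ i T ≤ 1 := by
  obtain ⟨h1, h2⟩ := lam_facts hκ hκ'
  have g := weak_lik h1 h2 T
  exact ⟨HH_nonneg _ g.nonneg, HH_le_one i g.nonneg g.sum⟩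

theorem gvec_mem (hκ : 0 < κ) (hκ' : κ < 12 / 25) {n : ℕ} (T : GTree n) (i : Fin 7) :
    0 ≤ gvec κ T i ∧ gvec κ T i ≤ 1 := by
  have hM : 0 ≤ Mtree 3 (-κ) T ∧ Mtree 3 (-κ) T ≤ 1 := by
    obtain ⟨h1, h2⟩ := lam_facts hκ hκ'
    exact ⟨Mtree_nonneg (by norm_num) h1.le h2.le T, Mtree_le_one (by norm_num) h1.le h2.le T⟩
  fin_cases i
  · exact Hv_mem hκ hκ' 0 T
  · exact Hv_mem hκ hκ' 1 T
  · exact Hv_mem hκ hκ' 2 T
  · exact Hm_mem hκ hκ' 0 T
  · exact Hm_mem hκ hκ' 1 T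
  · exact Hm_mem hκ hκ' 2 T
  · exact hM

/-- The descent theorem. -/
theorem descent (hκ : 0 < κ) (hκ' : κ < 12 / 25) {f : ℝ → ℝ} (hf : Mode 0 f)
    {s : ℕ → Fin 7 → ℝ} (h : LawSeq κ f s) : ∃ n, s n 6 ≤ 43 / 1000 := by
  by_contra hcon
  push Not at hcon
  obtain ⟨q1, q2⟩ := lam_facts hκ hκ'
  have hκ2 : 0 < κ ^ 2 := by positivity
  -- the scaled message functionals
  set u1 : ℕ → ℝ := fun n => (1 - s n 3) / κ ^ 2 with hu1
  set u2 : ℕ → ℝ := fun n => (1 - s n 4) / κ ^ 2 with hu2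
  set σ : ℕ → ℝ := fun n => (1 - s n 5) / κ ^ 2 with hσ
  set Φ : ℕ → ℝ := fun n => lamZ.1 * (1 - s n 0) + lamZ.2.1 * (1 - s n 1) +
    lamZ.2.2 * (1 - s n 2) with hΦ
  have e1 : ∀ n, κ ^ 2 * u1 n = 1 - s n 3 := fun n => by simp only [hu1]; field_simp
  have e2 : ∀ n, κ ^ 2 * u2 n = 1 - s n 4 := fun n => by simp only [hu2]; field_simp
  have e3 : ∀ n, κ ^ 2 * σ n = 1 - s n 5 := fun n => by simp only [hσ]; field_simp
  -- the vertex inequalities
  have vert : ∀ v : VE, okE v = true → ∀ n,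
      (v.a : ℝ) + (v.b.1 * u1 (n + 1) + v.b.2.1 * u2 (n + 1) + v.b.2.2 * σ (n + 1)) ≤
        Φ (n + 1) := by
    intro v hv n
    simp only [okE, Bool.and_eq_true] at hv
    have := h.lin' (κ ^ 2 * lamZ.1) (κ ^ 2 * lamZ.2.1) (κ ^ 2 * lamZ.2.2) (-v.b.1) (-v.b.2.1)
      (-v.b.2.2) 0 (κ ^ 2 * (lamZ.1 + lamZ.2.1 + lamZ.2.2 - v.a) - v.b.1 - v.b.2.1 - v.b.2.2)
      (fun m T => by
        have g := good_lik q1 q2 T
        have := exp_main hκ hκ' g.pos g.sum hv.1 hv.2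
        push_cast at this
        unfold Hv Hm
        linarith) n
    have k : κ ^ 2 * ((v.a : ℝ) + (v.b.1 * u1 (n + 1) + v.b.2.1 * u2 (n + 1) +
        v.b.2.2 * σ (n + 1))) ≤ κ ^ 2 * Φ (n + 1) := by
      have a1 := e1 (n + 1)
      have a2 := e2 (n + 1)
      have a3 := e3 (n + 1)
      have : κ ^ 2 * ((v.a : ℝ) + (v.b.1 * u1 (n + 1) + v.b.2.1 * u2 (n + 1) +
        v.b.2.2 * σ (n + 1))) = κ ^ 2 * v.a + (v.b.1 * (κ ^ 2 * u1 (n + 1)) +
          v.b.2.1 * (κ ^ 2 * u2 (n + 1)) + v.b.2.2 * (κ ^ 2 * σ (n + 1))) := by ring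
      rw [this, a1, a2, a3]
      simp only [hΦ]
      linarith
    exact le_of_mul_le_mul_left k hκ2
  -- ratio inequalities
  have rat : ∀ (b : ℤ × ℤ × ℤ) (t : Tri),
      t.chk (chkI ⟨0, 0, 0, 0, 0, 0⟩ b) (11, 11, 6) (19, 17, 17) (1, 1, 1) = true → ∀ n,
      b.1 * u1 (n + 1) + b.2.1 * u2 (n + 1) + b.2.2 * σ (n + 1) ≤ 0 := by
    intro b t ht n
    have := h.lin' 0 0 0 (-b.1) (-b.2.1) (-b.2.2) 0 (- b.1 - b.2.1 - b.2.2)
      (fun m T => by
        have g := good_lik q1 q2 T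
        have := exp_ratio hκ hκ' g.pos g.sum ht
        unfold Hm
        linarith) n
    have k : κ ^ 2 * (b.1 * u1 (n + 1) + b.2.1 * u2 (n + 1) + b.2.2 * σ (n + 1)) ≤ κ ^ 2 * 0 := by
      have : κ ^ 2 * (b.1 * u1 (n + 1) + b.2.1 * u2 (n + 1) + b.2.2 * σ (n + 1)) =
        b.1 * (κ ^ 2 * u1 (n + 1)) + b.2.1 * (κ ^ 2 * u2 (n + 1)) +
          b.2.2 * (κ ^ 2 * σ (n + 1)) := by ring
      rw [this, e1, e2, e3]
      linarith
    exact le_of_mul_le_mul_left k hκ2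
  have r1 : ∀ n, 737 * σ (n + 1) ≤ 1000 * u1 (n + 1) := by
    intro n
    have := rat _ _ okR1 n
    simp only [bR1] at this
    push_cast at this
    linarith
  have r2 : ∀ n, 10000 * u1 (n + 1) ≤ 7615 * σ (n + 1) := by
    intro n
    have := rat _ _ okR2 n
    simp only [bR2] at this
    push_cast at this
    linarith
  have r3 : ∀ n, 900 * σ (n + 1) ≤ 1000 * u2 (n + 1) := by
    intro n
    have := rat _ _ okR3 n
    simp only [bR3] at this
    push_cast at this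
    linarith
  have r4 : ∀ n, 1000 * u2 (n + 1) ≤ 924 * σ (n + 1) := by
    intro n
    have := rat _ _ okR4 n
    simp only [bR4] at this
    push_cast at this
    linarith
  -- upper bound
  have r5 : ∀ n, σ (n + 1) ≤ 243 / 100 := by
    intro n
    have := h.lin' 0 0 0 0 0 (-1) 0 (243 / 100 * κ ^ 2 - 1)
      (fun m T => by
        have g := good_lik q1 q2 T
        have := exp_main hκ hκ' g.pos g.sum okR5 okR5'
        simp only [bR5] at this
        push_cast at this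
        unfold Hm
        linarith) n
    have k : κ ^ 2 * σ (n + 1) ≤ κ ^ 2 * (243 / 100) := by
      rw [e3]
      linarith
    exact le_of_mul_le_mul_left k hκ2
  -- lower bound
  have r6 : ∀ n, 35 / 1000 < σ (n + 1) := by
    intro n
    have := h.lin' 0 0 0 0 0 115 (100 * κ ^ 2) 115
      (fun m T => by
        have g := good_lik q1 q2 T
        have := exp_M hκ hκ' g.pos g.sum
        have hM : Mtree 3 (-κ) T = Mfun (lik 3 (-κ) T) := rfl
        rw [hM]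
        unfold Hm
        linarith) n
    have hc := hcon (n + 1)
    have k : κ ^ 2 * (35 / 1000) < κ ^ 2 * σ (n + 1) := by
      rw [e3]
      have := mul_lt_mul_of_pos_left hc hκ2
      linarith
    exact lt_of_mul_lt_mul_left k hκ2.le
  -- decrease
  have step : ∀ n, Φ (n + 2) ≤ Φ (n + 1) - 1 := by
    intro n
    have s6 := r6 n
    have s5 := r5 n
    have s1 := r1 n
    have s2 := r2 n
    have s3 := r3 n
    have s4 := r4 n
    obtain ⟨K, cst, u, v, hK, hc, hchk, o1, o3, b1, b2⟩ :=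
      cover (x := 1000 * σ (n + 1)) (by linarith) (by linarith)
    have main := step3 hc hchk b1 b2 s1 (by linarith) s3 (by linarith) (vert _ o1 n) (vert _ o3 n)
    have hodd : (-1 : ℝ) ^ (K + 1) = -1 := (Even.add_one hK).neg_one_pow
    have heven : (-1 : ℝ) ^ K = 1 := hK.neg_one_pow
    have f1 := hf.bd (u1 (n + 1)) (by linarith) (by linarith) (K + 1)
    have f2 := hf.bd (u2 (n + 1)) (by linarith) (by linarith) K
    have f3 := hf.bd (σ (n + 1)) (by linarith) (by linarith) (K + 1)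
    rw [hodd] at f1 f3
    rw [heven] at f2
    have hΦ' : Φ (n + 2) = lamZ.1 * f (u1 (n + 1)) + lamZ.2.1 * f (u2 (n + 1)) +
        lamZ.2.2 * f (σ (n + 1)) := by
      simp only [hΦ]
      rw [h.rec0 (n + 1), h.rec1 (n + 1), h.rec2 (n + 1)]
    rw [hΦ']
    have hl1 : (lamZ.1 : ℝ) = -96320000 := by simp [lamZ]
    have hl2 : (lamZ.2.1 : ℝ) = 379495000 := by simp [lamZ]
    have hl3 : (lamZ.2.2 : ℝ) = -265630000 := by simp [lamZ]
    rw [hl1, hl2, hl3] at main ⊢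
    have hsq : (35 / 1000) ^ 2 ≤ σ (n + 1) ^ 2 := pow_le_pow_left₀ (by norm_num) s6.le 2
    linarith
  have dec : ∀ n : ℕ, Φ (n + 1) ≤ Φ 1 - 1 * n := by
    intro n
    induction n with
    | zero => simp
    | succ n ih =>
      have := step n
      push_cast
      linarith
  have low : ∀ n, (-400000000 : ℝ) ≤ Φ n := by
    intro n
    have a0 := h.mem n 0
    have a1 := h.mem n 1
    have a2 := h.mem n 2
    have hl1 : (lamZ.1 : ℝ) = -96320000 := by simp [lamZ]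
    have hl2 : (lamZ.2.1 : ℝ) = 379495000 := by simp [lamZ]
    have hl3 : (lamZ.2.2 : ℝ) = -265630000 := by simp [lamZ]
    simp only [hΦ]
    rw [hl1, hl2, hl3]
    linarith [a0.1, a0.2, a1.1, a1.2, a2.1, a2.2]
  have up : Φ 1 ≤ 400000000 := by
    have a0 := h.mem 1 0
    have a1 := h.mem 1 1
    have a2 := h.mem 1 2
    have hl1 : (lamZ.1 : ℝ) = -96320000 := by simp [lamZ]
    have hl2 : (lamZ.2.1 : ℝ) = 379495000 := by simp [lamZ]
    have hl3 : (lamZ.2.2 : ℝ) = -265630000 := by simp [lamZ]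
    simp only [hΦ]
    rw [hl1, hl2, hl3]
    linarith [a0.1, a0.2, a1.1, a1.2, a2.1, a2.2]
  have e4 := dec 900000000
  have e5 := low (900000000 + 1)
  push_cast at e4
  linarith

end Vale.Agent.P154.GDP
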