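import Vale.Agent.P154.GD.Main
import Vale.Agent.P154.GDP.Tree

/-!
# Descent on the Poisson tree, extended range
-/

namespace Vale.Agent.P154.GDP

open Finset Vale.Agent.P154 Vale.Agent.P154.Up
open Vale.Agent.P154.GD (Hv Hm gvec LawSeq pavg pavg_mem pavg_prod pavg_lin mode_poisson)

variable {κ : ℝ}

/-- the Poisson tree -/
theorem lawSeq_poisson (hκ : 0 < κ) (hκ' : κ < 12 / 25) {d : ℝ} (h : d * κ ^ 2 = 1) :
    LawSeq κ (fun x => 1 - Real.exp (-x)) (fun n i => pavg d n (fun T => gvec κ T i)) := by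
  have hκ2 : 0 < κ ^ 2 := by positivity
  have hd0 : 0 < d := by
    by_contra hc
    push Not at hc
    nlinarith
  have key : ∀ (i : Fin 3) (n : ℕ), 1 - pavg d (n + 1) (fun T => Hv κ i T) =
      1 - Real.exp (-((1 - pavg d n (fun T => Hm κ i T)) / κ ^ 2)) := by
    intro i n
    rw [pavg_prod hd0.le n (F := fun T => Hv κ i T) (G := fun T => Hm κ i T)
      (fun T => (Hv_mem hκ hκ' i T).1) (fun T => (Hv_mem hκ hκ' i T).2)
      (fun T => (Hm_mem hκ hκ' i T).1) (fun T => (Hm_mem hκ hκ' i T).2)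
      (fun k c => Hv_node hκ hκ' i k c)]
    have : d = 1 / κ ^ 2 := by field_simp; linarith
    rw [this]
    congr 3
    field_simp
  exact
    { mem := fun n i => pavg_mem hd0.le (fun T => (gvec_mem hκ hκ' T i).1)
        (fun T => (gvec_mem hκ hκ' T i).2)
      lin := fun c C hT n => pavg_lin hd0.le (fun T i => (gvec_mem hκ hκ' T i).1)
        (fun T i => (gvec_mem hκ hκ' T i).2) c (fun T => hT n T)
      rec0 := key 0
      rec1 := key 1
      rec2 := key 2 }

theorem gd_poisson' (hκ : 0 < κ) (hκ' : κ < 12 / 25) {d : ℝ} (h : d * κ ^ 2 = 1) :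
    ∃ n, ∑' T : GTree n, poissonWeight d T * Mtree 3 (-κ) T ≤ 43 / 1000 :=
  descent hκ hκ' mode_poisson (lawSeq_poisson hκ hκ' h)

end Vale.Agent.P154.GDP
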