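import Vale.Agent.P154.GDP.Data
import Vale.Agent.P154.GD.Scalar

/-!
# The scalar inequality, Poisson certificate
-/

namespace Vale.Agent.P154.GDP

open Vale.Agent.P154
open Vale.Agent.P154.GD (V3 Tri Cf VE kc kR nH dH den_nH tH nH_eq dH_zero)

section forms

variable {R : Type} [Add R] [Mul R] [Neg R] [Pow R ℕ]

/-- the polynomial form of the scalar inequality in terms of its building blocks -/
def F3a (k : ℤ → R) (K : ℕ) (cst : ℤ) (A B1 B2 B3 X W1 W3 W4 X3 X4 N1 N0 N2 : R) : R :=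
  k cst * k (10 ^ (6 * (K + 1))) * W1 ^ K * W3 ^ (K + 1) * W4 ^ (K + 1) *
    (A * k (10 ^ 6) * W1 * W3 * W4 + B3 * X * k 1000 * W3 * W4 + B1 * (X * X3) * W4 +
      B2 * (X * X4) * W3 + -(k 900 * X ^ 2 * W3 * W4)) +
  (-(k lamZ.1 * (X * X3) * N1 * W4 ^ (K + 2)) +
   -(k lamZ.2.2 * X * N0 * k (10 ^ (3 * (K + 2))) * W3 ^ (K + 2) * W4 ^ (K + 2)) +
   -(k lamZ.2.1 * (X * X4) * N2 * k (Int.ofNat (49 * (K + 2))) *
      (k (10 ^ 6) * W1 * W4) * W3 ^ (K + 2)))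

/-- the polynomial form of the scalar inequality, `K + 2` and `K + 1` terms -/
def F3 (k : ℤ → R) (K : ℕ) (cst : ℤ) (u v : Vp) (z1 z3 z4 : R) : R :=
  F3a k K cst (k u.e.a + k v.e.a * z1) (k u.e.b.1 + k v.e.b.1 * z1)
    (k u.e.b.2.1 + k v.e.b.2.1 * z1) (k u.e.b.2.2 + k v.e.b.2.2 * z1)
    (k (Int.ofNat u.s) + k (Int.ofNat v.s) * z1) (k 1 + z1) (k 1 + z3) (k 1 + z4)
    (k 737 + k 762 * z3) (k 900 + k 925 * z4)
    (nH k (k 1 * (k (10 ^ 6) * (k 1 + z1) * (k 1 + z3))) (k 1) (k 0)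
      ((k (Int.ofNat u.s) + k (Int.ofNat v.s) * z1) * (k 737 + k 762 * z3)) (K + 1) 0)
    (nH k (k 1 * (k 1000 * (k 1 + z1))) (k 1) (k 0)
      (k (Int.ofNat u.s) + k (Int.ofNat v.s) * z1) (K + 1) 0)
    (nH k (k 1 * (k (10 ^ 6) * (k 1 + z1) * (k 1 + z4))) (k 1) (k 0)
      ((k (Int.ofNat u.s) + k (Int.ofNat v.s) * z1) * (k 900 + k 925 * z4)) K 0)

end forms

theorem den_F3 (v : ℕ → ℝ) (K : ℕ) (cst : ℤ) (u w : Vp) (z1 z3 z4 : PE) :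
    PE.den v (F3 PE.C K cst u w z1 z3 z4) =
      F3 kR K cst u w (PE.den v z1) (PE.den v z3) (PE.den v z4) := by
  unfold F3 F3a
  simp only [PE.den_mul, PE.den_add, PE.den_neg, PE.den_pow, den_nH]
  rfl

/-- kernel check of the scalar inequality on one interval -/
def chk3 (K : ℕ) (cst : ℤ) (u v : Vp) : Bool :=
  kc 1 2 (2 * (K + 2)) (F3 PE.C K cst u v (PE.X 0) (PE.X 1) (PE.X 2))

theorem chk3_sound {K : ℕ} {cst : ℤ} {u v : Vp} (h : chk3 K cst u v = true) {z1 z3 z4 : ℝ}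
    (h1 : 0 ≤ z1) (h3 : 0 ≤ z3) (h4 : 0 ≤ z4) : 0 ≤ F3 kR K cst u v z1 z3 z4 := by
  have h5 := PE.den_nonneg_of_kcheck
    (fun i => if i = 0 then z1 else if i = 1 then z3 else z4) 1 2 _ (2 * (K + 2))
    (by intro i _; split_ifs <;> assumption) _ h
  rw [den_F3] at h5
  simp only [PE.den_X] at h5
  simpa using h5

theorem F3a_eq (K : ℕ) (cst : ℤ)
    {c A B1 B2 B3 X W1 W3 W4 X3 X4 N1 N0 N2 σ u1 u2 q0 q1 q2 F : ℝ} (hc0 : c = 1000)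
    (hX : X = c * W1 * σ) (h1 : X * X3 = c * c * W1 * W3 * u1)
    (h2 : X * X4 = c * c * W1 * W4 * u2)
    (hc : (cst : ℝ) = (K + 2) * F * 49 ^ (K + 1))
    (n0 : N0 = (K + 2) * F * 49 ^ (K + 1) * (1 * (c * W1)) ^ (K + 1) * q0)
    (n1 : N1 = (K + 2) * F * 49 ^ (K + 1) * (1 * (c * c * W1 * W3)) ^ (K + 1) * q1)
    (n2 : N2 = F * 49 ^ K * (1 * (c * c * W1 * W4)) ^ K * q2) :
    F3a kR K cst A B1 B2 B3 X W1 W3 W4 X3 X4 N1 N0 N2 =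
      ((cst : ℝ) * (c * c) ^ (K + 2) * W1 ^ (K + 1) * W3 ^ (K + 2) * W4 ^ (K + 2)) *
      (A + B3 * σ + B1 * u1 + B2 * u2 + W1 *
        (-(900 * σ ^ 2) - lamZ.1 * (u1 * q1) - lamZ.2.2 * (σ * q0) - lamZ.2.1 * (u2 * q2))) := by
  unfold F3a
  have e0 : kR (Int.ofNat (49 * (K + 2))) = 49 * ((K : ℝ) + 2) := by
    simp only [kR, Int.ofNat_eq_natCast, Int.cast_natCast]
    push_cast
    ring
  have e1 : kR (10 ^ (6 * (K + 1))) = (c * c) ^ (K + 1) := by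
    rw [hc0, show (1000 : ℝ) * 1000 = 10 ^ 6 by norm_num, ← pow_mul]
    simp only [kR, Int.cast_pow, Int.cast_ofNat]
  have e2 : kR (10 ^ (3 * (K + 2))) = c ^ (K + 2) := by
    rw [hc0, show (1000 : ℝ) = 10 ^ 3 by norm_num, ← pow_mul]
    simp only [kR, Int.cast_pow, Int.cast_ofNat]
  have e3 : kR (10 ^ 6) = c * c := by
    rw [hc0]
    simp only [kR, Int.cast_pow, Int.cast_ofNat]
    norm_num
  have e4 : kR 1000 = c := by rw [hc0]; simp [kR]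
  have e5 : kR 900 = 900 := by simp [kR]
  rw [h1, h2, n0, n1, n2, hX]
  rw [e0, e1, e2, e3, e4, e5]
  simp only [kR]
  rw [hc]
  generalize (lamZ.1 : ℝ) = l1
  generalize (lamZ.2.1 : ℝ) = l2
  generalize (lamZ.2.2 : ℝ) = l3
  ring

theorem step3_end {A B1 B2 B3 σ u1 u2 Φ z1 l1 l2 l3 q0 q1 q2 a00 a10 p00 p10
    r00 r10 s00 s10 : ℝ} (hz1 : 0 ≤ z1)
    (c00 : a00 + (p00 * u1 + r00 * u2 + s00 * σ) ≤ Φ)
    (c10 : a10 + (p10 * u1 + r10 * u2 + s10 * σ) ≤ Φ)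
    (hA : A = a00 + a10 * z1) (hB1 : B1 = p00 + p10 * z1) (hB2 : B2 = r00 + r10 * z1)
    (hB3 : B3 = s00 + s10 * z1)
    (key : 0 ≤ A + B3 * σ + B1 * u1 + B2 * u2 + (1 + z1) *
      (-(900 * σ ^ 2) - l1 * (u1 * q1) - l3 * (σ * q0) - l2 * (u2 * q2))) :
    l1 * (u1 * q1) + l2 * (u2 * q2) + l3 * (σ * q0) + 900 * σ ^ 2 ≤ Φ := by
  have a1 := mul_le_mul_of_nonneg_left c10 hz1
  have e : A + B3 * σ + B1 * u1 + B2 * u2 = (a00 + (p00 * u1 + r00 * u2 + s00 * σ)) +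
      z1 * (a10 + (p10 * u1 + r10 * u2 + s10 * σ)) := by
    rw [hA, hB1, hB2, hB3]; ring
  have hw : 0 < 1 + z1 := by positivity
  have key4 : 0 ≤ (1 + z1) * (Φ - (l1 * (u1 * q1) + l2 * (u2 * q2) +
      l3 * (σ * q0) + 900 * σ ^ 2)) := by
    have e2 : (1 + z1) * (Φ - (l1 * (u1 * q1) + l2 * (u2 * q2) +
      l3 * (σ * q0) + 900 * σ ^ 2)) = (Φ + z1 * Φ) +
      (1 + z1) * (-(900 * σ ^ 2) - l1 * (u1 * q1) - l3 * (σ * q0) - l2 * (u2 * q2)) := by ring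
    rw [e2]
    rw [e] at key
    linarith
  have := nonneg_of_mul_nonneg_right key4 hw
  linarith

theorem step3 {K : ℕ} {cst : ℤ} {u v : Vp} (hc : cst = (K + 2).factorial * 49 ^ (K + 1))
    (h : chk3 K cst u v = true) {σ u1 u2 Φ : ℝ} (hs : (u.s : ℝ) ≤ 1000 * σ)
    (hs' : 1000 * σ < v.s)
    (h1 : 737 * σ ≤ 1000 * u1) (h1' : 1000 * u1 < 762 * σ)
    (h2 : 900 * σ ≤ 1000 * u2) (h2' : 1000 * u2 < 925 * σ)
    (c00 : u.e.a + (u.e.b.1 * u1 + u.e.b.2.1 * u2 + u.e.b.2.2 * σ) ≤ Φ)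
    (c10 : v.e.a + (v.e.b.1 * u1 + v.e.b.2.1 * u2 + v.e.b.2.2 * σ) ≤ Φ) :
    lamZ.1 * (u1 * tH 0 u1 (K + 1) 0) + lamZ.2.1 * (u2 * tH 0 u2 K 0) +
      lamZ.2.2 * (σ * tH 0 σ (K + 1) 0) + 900 * σ ^ 2 ≤ Φ := by
  obtain ⟨z1, hz1, e1⟩ : ∃ z1 : ℝ, 0 ≤ z1 ∧ (u.s : ℝ) + v.s * z1 = 1000 * (1 + z1) * σ := by
    have h3 : 0 < v.s - 1000 * σ := by linarith
    refine ⟨(1000 * σ - u.s) / (v.s - 1000 * σ), div_nonneg (by linarith) h3.le, ?_⟩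
    field_simp
    ring
  obtain ⟨z3, hz3, e3⟩ : ∃ z3 : ℝ, 0 ≤ z3 ∧ (737 + 762 * z3) * σ = 1000 * (1 + z3) * u1 := by
    have h3 : 0 < 762 * σ - 1000 * u1 := by linarith
    refine ⟨(1000 * u1 - 737 * σ) / (762 * σ - 1000 * u1), div_nonneg (by linarith) h3.le, ?_⟩
    field_simp
    ring
  obtain ⟨z4, hz4, e4⟩ : ∃ z4 : ℝ, 0 ≤ z4 ∧ (900 + 925 * z4) * σ = 1000 * (1 + z4) * u2 := by
    have h3 : 0 < 925 * σ - 1000 * u2 := by linarith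
    refine ⟨(1000 * u2 - 900 * σ) / (925 * σ - 1000 * u2), div_nonneg (by linarith) h3.le, ?_⟩
    field_simp
    ring
  have h5 := chk3_sound h hz1 hz3 hz4
  have w1 : 0 < 1 + z1 := by linarith
  have w3 : 0 < 1 + z3 := by linarith
  have w4 : 0 < 1 + z4 := by linarith
  have hfac : ((K + 2).factorial : ℝ) = (K + 2) * ((K + 1).factorial : ℝ) := by
    rw [Nat.factorial_succ (K + 1)]
    push_cast; ring
  have hcst : (cst : ℝ) = (K + 2) * ((K + 1).factorial : ℝ) * 49 ^ (K + 1) := by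
    rw [hc]; push_cast; rw [hfac]
  obtain ⟨c, hc1⟩ : ∃ c : ℝ, c = 1000 := ⟨_, rfl⟩
  have hc6 : (10 : ℝ) ^ 6 = c * c := by rw [hc1]; norm_num
  have hcp : 0 < c := by rw [hc1]; norm_num
  have hX : kR (Int.ofNat u.s) + kR (Int.ofNat v.s) * z1 = c * (kR 1 + z1) * σ := by
    simp only [kR, Int.ofNat_eq_natCast, Int.cast_natCast, Int.cast_one]
    rw [hc1]
    exact e1
  have k0 : kR 0 = 0 := by simp [kR]
  have k1 : kR 1 = 1 := by simp [kR]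
  have k6 : kR (10 ^ 6) = c * c := by
    rw [← hc6]
    simp only [kR, Int.cast_pow, Int.cast_ofNat]
  have k3 : kR 1000 = c := by rw [hc1]; simp [kR]
  have x1 : (kR (Int.ofNat u.s) + kR (Int.ofNat v.s) * z1) * (kR 737 + kR 762 * z3) =
      c * c * (kR 1 + z1) * (kR 1 + z3) * u1 := by
    rw [hX, k1, hc1]
    simp only [kR, Int.cast_ofNat]
    linear_combination 1000 * (1 + z1) * e3
  have x2 : (kR (Int.ofNat u.s) + kR (Int.ofNat v.s) * z1) * (kR 900 + kR 925 * z4) =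
      c * c * (kR 1 + z1) * (kR 1 + z4) * u2 := by
    rw [hX, k1, hc1]
    simp only [kR, Int.cast_ofNat]
    linear_combination 1000 * (1 + z1) * e4
  have ez : (10 * 0 / (49 * 1) : ℝ) = 0 := by norm_num
  have n0 : nH kR (kR 1 * (kR 1000 * (kR 1 + z1))) (kR 1) (kR 0)
      (kR (Int.ofNat u.s) + kR (Int.ofNat v.s) * z1) (K + 1) 0 =
      (K + 2) * ((K + 1).factorial : ℝ) * 49 ^ (K + 1) *
        (1 * (c * (kR 1 + z1))) ^ (K + 1) * tH 0 σ (K + 1) 0 := by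
    rw [hX, k1, k3, k0, nH_eq one_pos (by positivity), dH_zero, ez,
      mul_div_cancel_left₀ σ (by positivity), hfac]
  have n1 : nH kR (kR 1 * (kR (10 ^ 6) * (kR 1 + z1) * (kR 1 + z3))) (kR 1) (kR 0)
      ((kR (Int.ofNat u.s) + kR (Int.ofNat v.s) * z1) * (kR 737 + kR 762 * z3)) (K + 1) 0 =
      (K + 2) * ((K + 1).factorial : ℝ) * 49 ^ (K + 1) *
        (1 * (c * c * (kR 1 + z1) * (kR 1 + z3))) ^ (K + 1) * tH 0 u1 (K + 1) 0 := by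
    rw [x1, k1, k6, k0, nH_eq one_pos (by positivity), dH_zero, ez,
      mul_div_cancel_left₀ u1 (by positivity), hfac]
  have n2 : nH kR (kR 1 * (kR (10 ^ 6) * (kR 1 + z1) * (kR 1 + z4))) (kR 1) (kR 0)
      ((kR (Int.ofNat u.s) + kR (Int.ofNat v.s) * z1) * (kR 900 + kR 925 * z4)) K 0 =
      ((K + 1).factorial : ℝ) * 49 ^ K *
        (1 * (c * c * (kR 1 + z1) * (kR 1 + z4))) ^ K * tH 0 u2 K 0 := by
    rw [x2, k1, k6, k0, nH_eq one_pos (by positivity), dH_zero, ez,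
      mul_div_cancel_left₀ u2 (by positivity)]
  unfold F3 at h5
  rw [F3a_eq K cst hc1 hX x1 x2 hcst n0 n1 n2] at h5
  rw [k1] at h5
  have hpos : 0 < (cst : ℝ) * (c * c) ^ (K + 2) * (1 + z1) ^ (K + 1) *
      (1 + z3) ^ (K + 2) * (1 + z4) ^ (K + 2) := by
    rw [hcst]; positivity
  have key2 := nonneg_of_mul_nonneg_right h5 hpos
  exact step3_end hz1 c00 c10 rfl rfl rfl rfl key2

end Vale.Agent.P154.GDP
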